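import Mathlib

/-! # P133 (helper286): a scalar partition with exact fourth powers -/

namespace Vale.Agent.P133.R2.H286

/-- the tent -/
noncomputable def T (x : ℝ) : ℝ := max (1 - |x|) 0

theorem T_nonneg (x : ℝ) : 0 ≤ T x := le_max_right _ _

theorem T_le_one (x : ℝ) : T x ≤ 1 := max_le (by linarith [abs_nonneg x]) zero_le_one

theorem T_cont : Continuous T := by unfold T; fun_prop

theorem T_zero {x : ℝ} (h : 1 ≤ |x|) : T x = 0 := max_eq_right (by linarith)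

theorem T_off {x : ℝ} {i : ℤ} (h0 : i ≠ ⌊x⌋) (h1 : i ≠ ⌊x⌋ + 1) : T (x - i) = 0 := by
  apply T_zero
  have hf := Int.floor_le x
  have hf' := Int.lt_floor_add_one x
  rcases lt_or_gt_of_ne h0 with h | h
  · have h2 : (i : ℝ) ≤ ⌊x⌋ - 1 := by
      have : i ≤ ⌊x⌋ - 1 := by omega
      exact_mod_cast this
    rw [abs_of_nonneg (by linarith)]
    linarith
  · have h2 : (⌊x⌋ : ℝ) + 2 ≤ i := by
      have : ⌊x⌋ + 2 ≤ i := by omega
      exact_mod_cast this
    rw [abs_of_nonpos (by linarith)]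
    linarith

theorem T_floor (x : ℝ) : T (x - (⌊x⌋ : ℤ)) + T (x - ((⌊x⌋ + 1 : ℤ) : ℝ)) = 1 := by
  have hf := Int.floor_le x
  have hf' := Int.lt_floor_add_one x
  have e1 : T (x - (⌊x⌋ : ℤ)) = 1 - (x - ⌊x⌋) := by
    unfold T
    rw [abs_of_nonneg (by linarith), max_eq_left (by linarith)]
  have e2 : T (x - ((⌊x⌋ + 1 : ℤ) : ℝ)) = x - ⌊x⌋ := by
    unfold T
    push_cast
    rw [abs_of_nonpos (by linarith), max_eq_left (by linarith)]
    ring
  rw [e1, e2]; ring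

theorem sum_two {S : Finset ℤ} (g : ℝ → ℝ) (g0 : g 0 = 0) (hg : ∀ y, 0 ≤ y → 0 ≤ g y) (x : ℝ) :
    ∑ i ∈ S, g (T (x - i)) ≤ g (T (x - (⌊x⌋ : ℤ))) + g (T (x - ((⌊x⌋ + 1 : ℤ) : ℝ))) := by
  classical
  have h1 : ∑ i ∈ S, g (T (x - i)) = ∑ i ∈ S ∩ {⌊x⌋, ⌊x⌋ + 1}, g (T (x - i)) := by
    symm
    apply Finset.sum_subset Finset.inter_subset_left
    intro i hi hi'
    simp only [Finset.mem_inter, Finset.mem_insert, Finset.mem_singleton, not_and, not_or] at hi'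
    obtain ⟨a, b⟩ := hi' hi
    rw [T_off a b, g0]
  rw [h1]
  calc _ ≤ ∑ i ∈ ({⌊x⌋, ⌊x⌋ + 1} : Finset ℤ), g (T (x - i)) := by
        apply Finset.sum_le_sum_of_subset_of_nonneg Finset.inter_subset_right
        intro i _ _
        exact hg _ (T_nonneg _)
    _ = _ := by rw [Finset.sum_pair (by omega)]

theorem sum_eq {S : Finset ℤ} (x : ℝ) (h0 : ⌊x⌋ ∈ S) (h1 : ⌊x⌋ + 1 ∈ S) :
    ∑ i ∈ S, T (x - i) = 1 := by
  classical
  rw [← T_floor x]
  symm
  have h2 : ∑ i ∈ ({⌊x⌋, ⌊x⌋ + 1} : Finset ℤ), T (x - i) = ∑ i ∈ S, T (x - i) := by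
    apply Finset.sum_subset
    · intro i hi
      simp only [Finset.mem_insert, Finset.mem_singleton] at hi
      rcases hi with rfl | rfl <;> assumption
    · intro i _ hi'
      simp only [Finset.mem_insert, Finset.mem_singleton, not_or] at hi'
      exact T_off hi'.1 hi'.2
  rw [← h2, Finset.sum_pair (by omega)]

theorem sqrt_le_one' {y : ℝ} (h : y ≤ 1) : √y ≤ 1 := by
  rw [← Real.sqrt_one]; exact Real.sqrt_le_sqrt h

theorem partition (R η : ℝ) (hη : 0 < η) : ∃ (m : ℕ) (s : Fin m → ℝ) (F : Fin m → ℝ → ℝ),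
    (∀ i, Continuous (F i)) ∧ (∀ i x, 0 ≤ F i x ∧ F i x ≤ 1) ∧
    (∀ i x, F i x ≠ 0 → |x - s i| ≤ η) ∧ (∀ x, |x| ≤ R → ∑ i, F i x ^ 4 = 1) ∧
    (∀ x, ∑ i, F i x ^ 2 ≤ 2) ∧ (∀ i, |s i| ≤ |R| + 3 * η) := by
  classical
  set N : ℤ := ⌈|R| / η⌉ + 1 with hN
  have hN1 : |R| / η ≤ N - 1 := by
    rw [hN]; push_cast; linarith [Int.le_ceil (|R| / η)]
  have hN2 : (N : ℝ) ≤ |R| / η + 2 := by
    rw [hN]; push_cast; linarith [Int.ceil_lt_add_one (|R| / η)]
  set S : Finset ℤ := Finset.Icc (-N) N with hS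
  set ev := S.equivFin with hev
  have hsum : ∀ (g : ℤ → ℝ), ∑ i : Fin S.card, g ((ev.symm i : S) : ℤ) = ∑ j ∈ S, g j := by
    intro g
    rw [← Finset.sum_coe_sort S g]
    exact Fintype.sum_equiv ev.symm _ _ fun i => rfl
  refine ⟨S.card, fun i => η * (((ev.symm i : S) : ℤ) : ℝ),
    fun i x => √(√(T (x / η - (((ev.symm i : S) : ℤ) : ℝ)))), ?_, ?_, ?_, ?_, ?_, ?_⟩
  · intro i
    have := T_cont
    fun_prop
  · intro i x
    refine ⟨Real.sqrt_nonneg _, ?_⟩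
    exact sqrt_le_one' (sqrt_le_one' (T_le_one _))
  · intro i x hx
    by_contra hcon
    push Not at hcon
    apply hx
    have h1 : 1 ≤ |x / η - (((ev.symm i : S) : ℤ) : ℝ)| := by
      have h2 : x - η * (((ev.symm i : S) : ℤ) : ℝ) = η * (x / η - (((ev.symm i : S) : ℤ) : ℝ)) := by
        field_simp
      rw [h2, abs_mul, abs_of_pos hη] at hcon
      by_contra h3
      push Not at h3
      nlinarith
    simp only
    rw [T_zero h1]; simp
  · intro x hx
    have h4 : ∀ i : Fin S.card, √(√(T (x / η - (((ev.symm i : S) : ℤ) : ℝ)))) ^ 4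
        = T (x / η - (((ev.symm i : S) : ℤ) : ℝ)) := by
      intro i
      have : ∀ y : ℝ, 0 ≤ y → √(√y) ^ 4 = y := by
        intro y hy
        rw [show (4 : ℕ) = 2 * 2 from rfl, pow_mul, Real.sq_sqrt (Real.sqrt_nonneg _),
          Real.sq_sqrt hy]
      exact this _ (T_nonneg _)
    simp only [h4]
    rw [hsum fun j => T (x / η - j)]
    have hxR : |x / η| ≤ N - 1 := by
      rw [abs_div, abs_of_pos hη]
      refine le_trans ?_ hN1
      exact div_le_div_of_nonneg_right (hx.trans (le_abs_self R)) hη.le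
    rw [abs_le] at hxR
    have f1 : (-N + 1 : ℤ) ≤ ⌊x / η⌋ := by
      rw [Int.le_floor]; push_cast; linarith
    have f2 : ⌊x / η⌋ ≤ N - 1 := by
      rw [Int.floor_le_iff]; push_cast; linarith
    refine sum_eq _ ?_ ?_ <;> rw [hS, Finset.mem_Icc] <;> constructor <;> omega
  · intro x
    have h4 : ∀ i : Fin S.card, √(√(T (x / η - (((ev.symm i : S) : ℤ) : ℝ)))) ^ 2
        = √(T (x / η - (((ev.symm i : S) : ℤ) : ℝ))) := fun i => Real.sq_sqrt (Real.sqrt_nonneg _)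
    simp only [h4]
    rw [hsum fun j => √(T (x / η - j))]
    refine (sum_two (fun y => √y) Real.sqrt_zero (fun y _ => Real.sqrt_nonneg y) _).trans ?_
    have a1 : √(T (x / η - (⌊x / η⌋ : ℤ))) ≤ 1 := by
      exact sqrt_le_one' (T_le_one _)
    have a2 : √(T (x / η - ((⌊x / η⌋ + 1 : ℤ) : ℝ))) ≤ 1 := by
      exact sqrt_le_one' (T_le_one _)
    linarith
  · intro i
    have hi := (ev.symm i).2
    have hi := Finset.mem_Icc.1 hi
    have b1 : |(((ev.symm i : S) : ℤ) : ℝ)| ≤ N := by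
      rw [abs_le]
      constructor
      · exact_mod_cast hi.1
      · exact_mod_cast hi.2
    rw [abs_mul, abs_of_pos hη]
    have b2 : η * |(((ev.symm i : S) : ℤ) : ℝ)| ≤ η * (|R| / η + 2) :=
      mul_le_mul_of_nonneg_left (b1.trans hN2) hη.le
    have b3 : η * (|R| / η + 2) = |R| + 2 * η := by field_simp
    linarith

end Vale.Agent.P133.R2.H286
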