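import Mathlib

/-! # P133 (helper286): the norm of an almost orthogonal row -/

open scoped ComplexOrder

namespace Vale.Agent.P133.R2.H286

universe u

variable {D : Type u} [NonUnitalCStarAlgebra D] [PartialOrder D] [StarOrderedRing D]

theorem row_norm {m : ℕ} (u : Fin m → D) (hu : ∀ i, ‖u i‖ ≤ 1) {ε : ℝ} (hε : 0 ≤ ε)
    (h : ∀ i j, i ≠ j → ‖star (u i) * u j‖ ≤ ε) :
    ‖∑ i, u i * star (u i)‖ ≤ 1 + (m : ℝ) ^ 2 * ε := by
  classical
  set P : D := ∑ i, u i * star (u i) with hP
  have hPs : IsSelfAdjoint P := by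
    rw [hP, IsSelfAdjoint, star_sum]
    exact Finset.sum_congr rfl fun i _ => by rw [star_mul, star_star]
  set Q : D := ∑ i, u i * (star (u i) * u i) * star (u i) with hQ
  have hQ0 : 0 ≤ Q := Finset.sum_nonneg fun i _ => by
    have e : u i * (star (u i) * u i) * star (u i) = star (u i * star (u i)) * (u i * star (u i)) := by
      rw [star_mul, star_star]; simp only [mul_assoc]
    rw [e]; exact star_mul_self_nonneg _
  have hQP : Q ≤ P := by
    rw [hQ, hP]
    refine Finset.sum_le_sum fun i _ => ?_
    have h1 : u i * (star (u i) * u i) * star (u i) ≤ ‖star (u i) * u i‖ • (u i * star (u i)) :=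
      CStarAlgebra.star_right_conjugate_le_norm_smul (hb := IsSelfAdjoint.star_mul_self _)
    refine h1.trans ?_
    have h2 : ‖star (u i) * u i‖ ≤ 1 := by
      rw [CStarRing.norm_star_mul_self]
      nlinarith [hu i, norm_nonneg (u i)]
    have h3 : 0 ≤ (1 - ‖star (u i) * u i‖) • (u i * star (u i)) :=
      smul_nonneg (by linarith) (mul_star_self_nonneg _)
    rw [sub_smul, one_smul, sub_nonneg] at h3
    exact h3
  have hQn : ‖Q‖ ≤ ‖P‖ := CStarAlgebra.norm_le_norm_of_nonneg_of_le hQ0 hQP
  have hPP : P * P - Q = ∑ i, ∑ j, if i = j then 0 else u i * (star (u i) * u j) * star (u j) := by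
    rw [hP, hQ, Finset.sum_mul_sum, ← Finset.sum_sub_distrib]
    refine Finset.sum_congr rfl fun i _ => ?_
    have e1 : u i * (star (u i) * u i) * star (u i) =
        ∑ j, if i = j then u i * (star (u i) * u j) * star (u j) else 0 := by
      rw [Finset.sum_ite_eq]; simp
    rw [e1, ← Finset.sum_sub_distrib]
    refine Finset.sum_congr rfl fun j _ => ?_
    by_cases hij : i = j
    · rw [if_pos hij, if_pos hij, sub_eq_zero]; simp only [mul_assoc]
    · rw [if_neg hij, if_neg hij, sub_zero]; simp only [mul_assoc]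
  have hE : ‖P * P - Q‖ ≤ (m : ℝ) ^ 2 * ε := by
    rw [hPP]
    refine (norm_sum_le _ _).trans ?_
    have h1 : ∀ i : Fin m, ‖∑ j, (if i = j then 0 else u i * (star (u i) * u j) * star (u j))‖
        ≤ m * ε := by
      intro i
      refine (norm_sum_le _ _).trans ?_
      have h2 : ∀ j ∈ Finset.univ, ‖(if i = j then 0 else u i * (star (u i) * u j) * star (u j))‖
          ≤ ε := by
        intro j _
        by_cases hij : i = j
        · rw [if_pos hij, norm_zero]; exact hε
        · rw [if_neg hij]
          have n1 := norm_mul_le (u i * (star (u i) * u j)) (star (u j))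
          have n2 := norm_mul_le (u i) (star (u i) * u j)
          have n3 := h i j hij
          have n4 := hu i
          have n5 := hu j
          rw [norm_star] at n1
          have n6 : ‖u i * (star (u i) * u j)‖ ≤ ε :=
            n2.trans (by
              calc ‖u i‖ * ‖star (u i) * u j‖ ≤ 1 * ε :=
                    mul_le_mul n4 n3 (norm_nonneg _) zero_le_one
                _ = ε := one_mul ε)
          calc _ ≤ ‖u i * (star (u i) * u j)‖ * ‖u j‖ := n1
            _ ≤ ε * 1 := mul_le_mul n6 n5 (norm_nonneg _) hε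
            _ = ε := mul_one ε
      refine (Finset.sum_le_card_nsmul _ _ _ h2).trans ?_
      simp
    refine (Finset.sum_le_card_nsmul _ _ _ fun i _ => h1 i).trans ?_
    simp only [Finset.card_univ, Fintype.card_fin, nsmul_eq_mul]
    exact le_of_eq (by ring)
  have hsq : ‖P‖ * ‖P‖ ≤ ‖P‖ + (m : ℝ) ^ 2 * ε := by
    have e1 : ‖P‖ * ‖P‖ = ‖P * P‖ := by
      have := CStarRing.norm_star_mul_self (x := P)
      rw [hPs.star_eq] at this
      exact this.symm
    rw [e1]
    calc ‖P * P‖ = ‖Q + (P * P - Q)‖ := by rw [add_sub_cancel]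
      _ ≤ ‖Q‖ + ‖P * P - Q‖ := norm_add_le _ _
      _ ≤ _ := add_le_add hQn hE
  have hc : 0 ≤ (m : ℝ) ^ 2 * ε := by positivity
  by_contra hcon
  push Not at hcon
  nlinarith [norm_nonneg P]

end Vale.Agent.P133.R2.H286
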